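import Vale.Agent.P199.Extend

namespace Vale.Agent.Results.P199.BrauerTrivialCenter

universe u

open Vale.Agent.P199

/-- Kurosh's problem for division rings over uncountable fields with trivial Brauer groups.

(1) If `k` is an uncountable field all of whose finite extensions have trivial Brauer group,
every division ring algebraic over the central subfield `k` is commutative.

(2) If only some finite extension `E` of the uncountable field `k` has this property, every
division ring algebraic over the central subfield `k` is finite-dimensional over its center,
of dimension at most `[E : k] ^ 2`. -/
theorem result :
    (∀ (k D : Type u) [Field k] [Uncountable k] [DivisionRing D] [Algebra k D]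
      [Algebra.IsAlgebraic k D], BrauerTrivial k → ∀ a b : D, a * b = b * a) ∧
    (∀ (k E D : Type u) [Field k] [Uncountable k] [Field E] [Algebra k E] [Module.Finite k E]
      [DivisionRing D] [Algebra k D] [Algebra.IsAlgebraic k D], BrauerTrivial E →
      Module.Finite (Subring.center D) D ∧
        Module.finrank (Subring.center D) D ≤ (Module.finrank k E) ^ 2) :=
  ⟨fun _ _ _ _ _ _ _ h => commutative_of_brauerTrivial h,
   fun _ _ _ _ _ _ _ _ _ _ _ h => finite_of_brauerTrivial_ext h⟩

end Vale.Agent.Results.P199.BrauerTrivialCenter
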